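import Vale.Agent.P074.Upper

open MeasureTheory

theorem Vale.Agent.Results.P074.A_full.result (d : ℕ) (hd : 2 ≤ d) :
    IsGreatest {α : ℝ | 0 < α ∧ α ≤ 1 ∧ Vale.Agent.P074.Admissible d α} (1 / 3) ∧
    sSup {α : ℝ | 0 < α ∧ α ≤ 1 ∧ Vale.Agent.P074.Admissible d α} = 1 / 3 ∧
    ¬ Vale.Agent.P074.Admissible d (1 / 2) ∧
    ∀ K Y : Set (EuclideanSpace ℝ (Fin d)), IsCompact K → Convex ℝ K → (interior K).Nonempty →
      IsCompact Y → ∀ μ : Measure (EuclideanSpace ℝ (Fin d)), IsProbabilityMeasure μ → μ Y = 1 →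
        ∃ T, Vale.Agent.P074.IsOptimalMap (Vale.Agent.P074.unif K) μ T := by
  have h : IsGreatest {α : ℝ | 0 < α ∧ α ≤ 1 ∧ Vale.Agent.P074.Admissible d α} (1 / 3) :=
    ⟨⟨by norm_num, by norm_num, Vale.Agent.P074.admissible_third (by omega)⟩,
      fun α hα => Vale.Agent.P074.le_third_of_admissible hd hα.2.2⟩
  refine ⟨h, h.csSup_eq, fun h2 => ?_, fun K Y hK _ hi hY μ _ hμ =>
    Vale.Agent.P074.exists_optimalMap hK hi hY μ hμ⟩
  have := Vale.Agent.P074.le_third_of_admissible hd h2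
  norm_num at this
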