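import Vale.Agent.P074.Lower

theorem Vale.Agent.Results.P074.B_upper_third.result (d : ℕ) (hd : 2 ≤ d) (α : ℝ)
    (hα : 1 / 3 < α) : ¬ Vale.Agent.P074.Admissible d α :=
  fun h => absurd (Vale.Agent.P074.le_third_of_admissible hd h) (not_le.2 hα)
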